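import Vale.Agent.P070.Final

/-!
# P070 (Naimark's problem): small joint eigenspaces

`A` is a C*-algebra (unital or not, of any size) with property (N).  Then it has an irreducible
representation, and each irreducible representation `π : A → B(H)` is an isomorphism of `A` onto the
compact operators `K(H)` as soon as one of the following holds (all in ZFC):

1. there is a star-closed commuting set `D ⊆ B(H)` of left multipliers of `π(A)` whose joint
   eigenspaces span a dense subspace of `H` and each have density character `< 2^ℵ₀`;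
2. `H` has no orthonormal family indexed by `ℕ → Bool`, i.e. `dim H < 2^ℵ₀`;
3. some nonzero `a : A` has `π(a) H` of density character `< 2^ℵ₀`;
4. `A` has a closed commutative star subalgebra `D` whose normalisers span a dense subspace (any
   Cartan or diagonal subalgebra, `C₀(G⁰)` in an étale groupoid algebra) and one
   character `χ` of `D` with joint eigenspace `{η | π(d) η = χ(d) η}` of density `< 2^ℵ₀`;
5. `D` as in 4 and one character of `D` has a unique extension to a quasi-state of `A`;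
6. `D` closed commutative, `S` a total set of normalisers of `D`, `χ` a character of `D` such that
   the elements of `S` which fix `χ` are, near `χ`, multiples of fewer than `2^ℵ₀` elements (small
   isotropy at one point, e.g. étale groupoid algebras with one isotropy group of size `< 2^ℵ₀`);
7. `D`, `S`, `χ` as in 6 (any isotropy), and some quasi-state `φ` of `A` extends `χ` and has
   `|φ n|² = χ (n* n)` for the `n ∈ S` which fix `χ` (e.g. the trivial representation of the isotropy
   group: all full étale groupoid algebras, all full crossed products `C₀(X) ⋊ Γ`, `Γ` discrete);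
8. `A` is generated by a closed commutative star subalgebra `D` and fewer than `2^ℵ₀` normalisers
   of `D`.
-/

open scoped ComplexOrder InnerProductSpace

namespace Vale.Agent.Results.P070.AtomicSubalgebras

open Vale.Agent.P070

universe u

/-- A representation of `A` on a Hilbert space. -/
structure Rep (A : Type u) [NonUnitalCStarAlgebra A] where
  H : Type u
  [nacg : NormedAddCommGroup H]
  [ips : InnerProductSpace ℂ H]
  [cs : CompleteSpace H]
  π : A →⋆ₙₐ[ℂ] (H →L[ℂ] H)

attribute [instance] Rep.nacg Rep.ips Rep.cs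

section Defs

variable {A H K : Type u} [NonUnitalCStarAlgebra A] [NormedAddCommGroup H]
  [InnerProductSpace ℂ H] [CompleteSpace H] [NormedAddCommGroup K]
  [InnerProductSpace ℂ K] [CompleteSpace K]

/-- unitary equivalence of two representations -/
def UnitEquiv (π : A →⋆ₙₐ[ℂ] (H →L[ℂ] H)) (ρ : A →⋆ₙₐ[ℂ] (K →L[ℂ] K)) : Prop :=
  ∃ U : H ≃ₗᵢ[ℂ] K, ∀ a x, U (π a x) = ρ a (U x)

/-- `π` is an isomorphism of `A` onto the algebra of compact operators of `H`. -/
def IsoCompact (π : A →⋆ₙₐ[ℂ] (H →L[ℂ] H)) : Prop :=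
  Function.Injective π ∧ Set.range π = {T : H →L[ℂ] H | IsCompactOperator T}

/-- `V` is contained in the closure of a set with fewer than `2^ℵ₀` elements. -/
def Small {H : Type u} [NormedAddCommGroup H] (V : Set H) : Prop :=
  ∃ s : Set H, Cardinal.mk s < Cardinal.continuum ∧ V ⊆ closure s

/-- `D` is a star-closed commuting set of left multipliers of `π(A)` -/
def Multipliers (π : A →⋆ₙₐ[ℂ] (H →L[ℂ] H)) (D : Set (H →L[ℂ] H)) : Prop :=
  (∀ d ∈ D, star d ∈ D) ∧ (∀ d ∈ D, ∀ d' ∈ D, d * d' = d' * d) ∧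
    ∀ d ∈ D, ∀ a, ∃ b, π b = d * π a

/-- the joint eigenspaces of `D` are small and span a dense subspace -/
def SmallAtomic (D : Set (H →L[ℂ] H)) : Prop :=
  (⨆ χ : (D → ℂ), eig D χ).topologicalClosure = ⊤ ∧ ∀ χ : (D → ℂ), Small (eig D χ : Set H)

/-- `H` has no orthonormal family indexed by `ℕ → Bool` -/
def SmallSpace (H : Type u) [NormedAddCommGroup H] [InnerProductSpace ℂ H] : Prop :=
  ¬ ∃ v : (ℕ → Bool) → H, Orthonormal ℂ v

/-- `π(a) H` is small for some `a ≠ 0` -/
def SmallRange (π : A →⋆ₙₐ[ℂ] (H →L[ℂ] H)) : Prop :=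
  ∃ a : A, a ≠ 0 ∧ Small (Set.range (π a))

/-- `D` is closed and commutative -/
def ClosedComm (D : NonUnitalStarSubalgebra ℂ A) : Prop :=
  IsClosed (D : Set A) ∧ ∀ x ∈ D, ∀ y ∈ D, x * y = y * x

/-- some character `χ` of `D` has a small joint eigenspace in `H` -/
def SmallEigenspace (π : A →⋆ₙₐ[ℂ] (H →L[ℂ] H)) (D : NonUnitalStarSubalgebra ℂ A) : Prop :=
  ∃ χ : A → ℂ, IsChar D χ ∧ Small {η : H | ∀ d ∈ D, π d η = χ d • η}

/-- some character of `D` has only one extension to a quasi-state of `A` -/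
def UniqueExtension (D : NonUnitalStarSubalgebra ℂ A) : Prop :=
  ∃ χ : A → ℂ, UniqueChar D χ

/-- the normaliser `n` fixes the character `χ` of `D`: `χ (n* n) ≠ 0` and
`χ (n* d n) = χ (n* n) χ (d)` for all `d ∈ D`. -/
def Fixes (D : NonUnitalStarSubalgebra ℂ A) (χ : A → ℂ) (n : A) : Prop :=
  χ (star n * n) ≠ 0 ∧ ∀ d ∈ D, χ (star n * d * n) = χ (star n * n) * χ d

/-- `S` is a set of normalisers of `D` which spans a dense subspace of `A` -/
def TotalNormalizers (D : NonUnitalStarSubalgebra ℂ A) (S : Set A) : Prop :=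
  S ⊆ normalizer D ∧ Dense (Submodule.span ℂ S : Set A)

/-- small isotropy at one character `χ`: the elements of `S` fixing `χ` are, near `χ`, multiples of
fewer than `2^ℵ₀` elements of `A` -/
def SmallIsotropy (D : NonUnitalStarSubalgebra ℂ A) : Prop :=
  ∃ S : Set A, TotalNormalizers D S ∧ ∃ χ : A → ℂ, IsChar D χ ∧
    ∃ N : Set A, Cardinal.mk N < Cardinal.continuum ∧ ∀ n ∈ S, Fixes D χ n →
      ∀ ε > 0, ∃ m ∈ N, ∃ z : ℂ, ∃ d ∈ D, χ d = 1 ∧ ‖(n - z • m) * d‖ < ε

/-- some quasi-state `φ` extends a character `χ` and is multiplicative on the isotropy at `χ` -/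
def IsotropyState (D : NonUnitalStarSubalgebra ℂ A) : Prop :=
  ∃ S : Set A, TotalNormalizers D S ∧ ∃ χ : A → ℂ, IsChar D χ ∧
    ∃ φ ∈ Q A, (∀ d ∈ D, φ d = χ d) ∧
      ∀ n ∈ S, Fixes D χ n → ((‖φ n‖ ^ 2 : ℝ) : ℂ) = χ (star n * n)

/-- `D` and fewer than `2^ℵ₀` normalisers of `D` generate `A` as a C*-algebra -/
def FewNormalizers (D : NonUnitalStarSubalgebra ℂ A) : Prop :=
  ∃ N : Set A, N ⊆ normalizer D ∧ Cardinal.mk N < Cardinal.continuum ∧
    ∀ B : NonUnitalStarSubalgebra ℂ A, IsClosed (B : Set A) → (D : Set A) ⊆ B →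
      N ⊆ (B : Set A) → B = ⊤

/-- Property (N): `A ≠ 0` and any two irreducible representations of `A` are unitarily
equivalent. -/
def HasN (A : Type u) [NonUnitalCStarAlgebra A] : Prop :=
  Nontrivial A ∧ ∀ R S : Rep A, IsIrred R.π → IsIrred S.π → UnitEquiv R.π S.π

theorem HasN.propertyN (h : HasN A) : PropertyN A := by
  refine ⟨h.1, ?_⟩
  intro H₁ H₂ i1 i2 i3 j1 j2 j3 π₁ π₂ h1 h2
  exact h.2 ⟨H₁, π₁⟩ ⟨H₂, π₂⟩ h1 h2

end Defs

theorem result (A : Type u) [NonUnitalCStarAlgebra A] (hN : HasN A) :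
    (∃ R : Rep A, IsIrred R.π) ∧ ∀ R : Rep A, IsIrred R.π →
      (∀ D : Set (R.H →L[ℂ] R.H), Multipliers R.π D → SmallAtomic D → IsoCompact R.π) ∧
      (SmallSpace R.H → IsoCompact R.π) ∧
      (SmallRange R.π → IsoCompact R.π) ∧
      ∀ D : NonUnitalStarSubalgebra ℂ A, ClosedComm D →
        (IsRegular D → SmallEigenspace R.π D → IsoCompact R.π) ∧
        (IsRegular D → UniqueExtension D → IsoCompact R.π) ∧
        (SmallIsotropy D → IsoCompact R.π) ∧
        (IsotropyState D → IsoCompact R.π) ∧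
        (FewNormalizers D → IsoCompact R.π) := by
  have hN' := hN.propertyN
  refine ⟨?_, ?_⟩
  · obtain ⟨H, i1, i2, i3, π, hπ⟩ := exists_irred hN'
    exact ⟨⟨H, π⟩, hπ⟩
  rintro ⟨H, π⟩ hπ
  refine ⟨?_, ?_, ?_, ?_⟩
  · rintro D ⟨hstar, hcomm, hmul⟩ ⟨hspan, hsm⟩
    exact atomic_set hN' hπ D hstar hcomm hmul hspan hsm
  · intro hdim
    exact small_dim hN' hπ hdim
  · rintro ⟨a, ha, hs⟩
    exact range_small hN' hπ a ha hs
  · rintro D ⟨hcl, hcomm⟩
    refine ⟨?_, ?_, ?_, ?_, ?_⟩
    · rintro hreg ⟨χ, hχ, hs⟩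
      exact regular_small hN' hπ D hcl hcomm hreg hχ hs
    · rintro hreg ⟨χ, hχ⟩
      exact regular_unique hN' hπ D hcl hcomm hreg hχ
    · rintro ⟨S, ⟨hS, hSd⟩, χ, hχ, N, hNc, hiso⟩
      exact isotropy_small hN' hπ D hcl hcomm S hS hSd hχ N hNc
        (fun n hn h1 h2 => hiso n hn ⟨h1, h2⟩)
    · rintro ⟨S, ⟨hS, hSd⟩, χ, hχ, φ, hφ, hφD, hφS⟩
      exact isotropy_state hN' hπ D hcomm S hS hSd hχ hφ hφD
        (fun n hn h1 h2 => hφS n hn ⟨h1, h2⟩)
    · rintro ⟨N, hNn, hNc, hgen⟩
      exact generated_small hN' hπ D hcl hcomm N hNn hNc hgen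

end Vale.Agent.Results.P070.AtomicSubalgebras
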