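import Vale.Agent.P070.Rep
import Vale.Agent.P070X.Final

/-!
# P070: Naimark's problem for full crossed products of commutative C*-algebras by discrete groups
-/

namespace Vale.Agent.Results.P070.CrossedProducts

open Vale.Agent.P070 Vale.Agent.P070X

universe u v

/-- Let `D` be a commutative C*-algebra, `α` an action of a discrete group `G` on `D` (no
restriction on the size of `D` or `G`).  If the full crossed product `A` has property (N), then `A`
is isomorphic to the compact operators on a Hilbert space, through each of its irreducible
representations. -/
theorem result (D A : Type u) [NonUnitalCStarAlgebra D] [NonUnitalCStarAlgebra A]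
    (hD : ∀ x y : D, x * y = y * x) (G : Type v) [Group G] (α : G →* (D ≃⋆ₐ[ℂ] D))
    (F : FullCrossed α A) (hN : HasN A) :
    (∃ R : Rep A, IsIrred R.π) ∧ ∀ R : Rep A, IsIrred R.π → IsoCompact R.π :=
  ⟨hN.exists_irred, fun R hR => crossed_compact hD hN.propertyN hR F⟩

end Vale.Agent.Results.P070.CrossedProducts
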