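import Vale.Agent.P070.Rep
import Vale.Agent.P070G.Final

/-!
# P070: Naimark's problem for the C*-algebras of arbitrary directed graphs
-/

namespace Vale.Agent.Results.P070.GraphAlgebras

open Vale.Agent.P070 Vale.Agent.P070G

universe u v

/-- Let `A` be generated by a Toeplitz-Cuntz-Krieger family of a directed graph (of any
cardinality).  If `A` has property (N), then `A` is isomorphic to the compact operators on a Hilbert
space, through each of its irreducible representations. -/
theorem result (A : Type u) [NonUnitalCStarAlgebra A] (V E : Type v) (src rng : E → V)
    (F : TCK V E src rng A) (hF : Generates F) (hN : HasN A) :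
    (∃ R : Rep A, IsIrred R.π) ∧ ∀ R : Rep A, IsIrred R.π → IsoCompact R.π :=
  ⟨hN.exists_irred, fun _ hR => graph_compact hN.propertyN hR F hF⟩

end Vale.Agent.Results.P070.GraphAlgebras
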